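import Mathlib
import Vale.Agent.Lib.P154E.Framework
import Vale.Agent.Lib.P154E.EChartFinal

/-!
Nonreconstruction for the ferromagnetic three-state Potts channel on Galton-Watson trees, up to
and including the Kesten-Stigum bound, for every mean offspring number.
-/

namespace Vale.Agent.Results.P154.A_q3_ferro_GW

open Filter Topology
open Vale.Agent.Lib.P154E

/-- For `q = 3` and `0 ≤ λ ≤ 1`: if the offspring law `pi` has mean `d`, charges some `k0 ≥ 2` and
`d λ ^ 2 ≤ 1`, then `a_n → 0`. In particular on the Poisson(`d`) tree for every real `d > 0`, and on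
the rooted `d`-ary tree (point mass at `d`) for every integer `d ≥ 2`. -/
theorem result :
    (∀ (pi : ℕ → ℝ) (d : ℝ) (k0 : ℕ) (lam : ℝ), (∀ k, 0 ≤ pi k) → HasSum pi 1 →
      HasSum (fun k : ℕ => (k : ℝ) * pi k) d → 2 ≤ k0 → 0 < pi k0 → 0 ≤ lam → lam ≤ 1 →
      d * lam ^ 2 ≤ 1 → Tendsto (recon pi lam) atTop (𝓝 0)) ∧
    (∀ (d lam : ℝ), 0 < d → 0 ≤ lam → lam ≤ 1 → d * lam ^ 2 ≤ 1 →
      Tendsto (recon (pois d) lam) atTop (𝓝 0)) ∧
    (∀ (d : ℕ) (lam : ℝ), 2 ≤ d → 0 ≤ lam → (d : ℝ) * lam ^ 2 ≤ 1 →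
      Tendsto (recon (fun k => if k = d then (1 : ℝ) else 0) lam) atTop (𝓝 0)) := by
  refine ⟨?_, ?_, ?_⟩
  · intro pi d k0 lam h0pi h1pi hd hk0 hk h0 h1 h
    exact frameworkE ineqIE ineqIIE pi h0pi h1pi d hd k0 hk0 hk lam h0 h1 h
  · intro d lam hd h0 h1 h
    exact frameworkE_pois ineqIE ineqIIE d hd lam h0 h1 h
  · intro d lam hd h0 h
    have hd2 : (2 : ℝ) ≤ d := by exact_mod_cast hd
    have h1 : lam ≤ 1 := by
      by_contra hc
      push Not at hc
      nlinarith
    refine frameworkE ineqIE ineqIIE _ ?_ ?_ (d : ℝ) ?_ d hd ?_ lam h0 h1 h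
    · intro k
      split_ifs <;> norm_num
    · exact hasSum_ite_eq d 1
    · have e : (fun k : ℕ => (k : ℝ) * (if k = d then (1 : ℝ) else 0)) =
          fun k => if k = d then (d : ℝ) else 0 := by
        funext k
        split_ifs with hk
        · rw [hk, mul_one]
        · rw [mul_zero]
      rw [e]
      exact hasSum_ite_eq d (d : ℝ)
    · simp

end Vale.Agent.Results.P154.A_q3_ferro_GW
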