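import Mathlib
import Vale.Agent.Lib.P154.Framework
import Vale.Agent.Lib.P154.ChartFinal

/-!
Nonreconstruction for the ferromagnetic three-state Potts channel on the rooted `d`-ary tree,
for every `d ≥ 2`, up to and including the Kesten-Stigum bound.
-/

namespace Vale.Agent.Results.P154.A_q3_ferro_dary

open Filter Topology

/-- For `q = 3`, `λ ≥ 0`, every integer `d ≥ 2` and `d λ ^ 2 ≤ 1`, the quantity `a_n` of the
problem tends to `0`: there is no reconstruction on the rooted `d`-ary tree. -/
theorem result (d : ℕ) (lam : ℝ) (hd : 2 ≤ d) (h0 : 0 ≤ lam) (h : (d : ℝ) * lam ^ 2 ≤ 1) :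
    Tendsto (Vale.Agent.Lib.P154.recon lam d) atTop (𝓝 0) :=
  Vale.Agent.Lib.P154.framework Vale.Agent.Lib.P154.ineqI Vale.Agent.Lib.P154.ineqII hd h0 h

end Vale.Agent.Results.P154.A_q3_ferro_dary
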